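import Vale.Agent.H9.FK.Final

/-!
The Friedgut–Kalai threshold-width conjecture, for graphs and for `r`-uniform hypergraphs.
-/

namespace Vale.Agent.Results.P063.ThresholdWidth

open Vale.Agent.H9.FK

/-- Graphs (Q1) and `r`-uniform hypergraphs, `r ≥ 3` (Q2). -/
theorem result :
    (∀ ε : ℝ, 0 < ε → ε < 1 / 2 → ∃ C : ℝ, ∀ n : ℕ, 2 ≤ n → ∀ P : Set (HG n 2),
      IsProperty P → IsIncreasing P → IsNontrivial P →
        width P ε ≤ C / (Real.log n) ^ 2) ∧
    (∀ r : ℕ, 3 ≤ r → ∀ ε : ℝ, 0 < ε → ε < 1 / 2 → ∃ C : ℝ, ∀ n : ℕ, r ≤ n →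
      ∀ P : Set (HG n r), IsProperty P → IsIncreasing P → IsNontrivial P →
        width P ε ≤ C * (Real.log n) ^ (-((r : ℝ) / ((r : ℝ) - 1)))) := by
  constructor
  · intro ε h0 h1
    obtain ⟨C, hC⟩ := width_bound 2 le_rfl ε h0 h1
    refine ⟨C, ?_⟩
    intro n hn P hP hI hN
    have h := hC n hn P hP hI hN
    have hlog : 0 ≤ Real.log n := Real.log_natCast_nonneg n
    have h2 : (-(((2 : ℕ) : ℝ) / (((2 : ℕ) : ℝ) - 1))) = -(2 : ℝ) := by norm_num
    rw [h2, Real.rpow_neg hlog] at h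
    have h3 : Real.log n ^ (2 : ℝ) = Real.log n ^ 2 := by
      exact_mod_cast Real.rpow_natCast (Real.log n) 2
    rw [h3] at h
    rw [div_eq_mul_inv]
    exact h
  · intro r hr ε h0 h1
    exact width_bound r (by omega) ε h0 h1

end Vale.Agent.Results.P063.ThresholdWidth
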