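import Vale.Agent.H9.FK.Strong

/-!
The Friedgut–Kalai threshold-width conjecture for `r`-uniform hypergraphs, `r ≥ 2`, in a form
uniform in `ε`, together with the underlying influence inequality at every `p`.
-/

namespace Vale.Agent.Results.P063.UniformWidth

open Vale.Agent.H9.FK

/-- The influence inequality and the width bound, with one constant depending only on `r`. -/
theorem result (r : ℕ) (hr : 2 ≤ r) : ∃ C : ℝ, 0 < C ∧ ∀ n : ℕ, r ≤ n →
    ∀ P : Set (HG n r), IsProperty P → IsIncreasing P → IsNontrivial P →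
      (∀ p : ℝ, 0 < p → p < 1 →
        (Real.log n) ^ ((r : ℝ) / ((r : ℝ) - 1)) * (mu p P * (1 - mu p P))
          ≤ C * totalInfluence p P) ∧
      (∀ ε : ℝ, 0 < ε → ε < 1 / 2 →
        width P ε ≤ C * Real.log (1 / (2 * ε)) *
          (Real.log n) ^ (-((r : ℝ) / ((r : ℝ) - 1)))) :=
  strong r hr

end Vale.Agent.Results.P063.UniformWidth
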